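import Mathlib

/-!
# P345: Diophantine representations, single-fold and finite-fold
-/

namespace Vale.Agent.P345

/-- The value of the integer polynomial `P` in the parameters `A_1..A_n` (left summand) and the
auxiliary unknowns `W_1..W_m` (right summand) at natural number arguments `a`, `w`. -/
noncomputable def evalAt {n m : ℕ} (P : MvPolynomial (Fin n ⊕ Fin m) ℤ)
    (a : Fin n → ℕ) (w : Fin m → ℕ) : ℤ :=
  MvPolynomial.eval (fun i => ((Sum.elim a w i : ℕ) : ℤ)) P

/-- `P` is a Diophantine representation of `S`. -/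
def IsRep {n m : ℕ} (P : MvPolynomial (Fin n ⊕ Fin m) ℤ) (S : Set (Fin n → ℕ)) : Prop :=
  ∀ a, a ∈ S ↔ ∃ w, evalAt P a w = 0

/-- For every value of the parameters there is at most one solution. -/
def IsSingleFold {n m : ℕ} (P : MvPolynomial (Fin n ⊕ Fin m) ℤ) : Prop :=
  ∀ a, {w | evalAt P a w = 0}.Subsingleton

/-- For every value of the parameters there are finitely many solutions. -/
def IsFiniteFold {n m : ℕ} (P : MvPolynomial (Fin n ⊕ Fin m) ℤ) : Prop :=
  ∀ a, {w | evalAt P a w = 0}.Finite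

/-- `S` has a single-fold Diophantine representation. -/
def HasSingleFoldRep {n : ℕ} (S : Set (Fin n → ℕ)) : Prop :=
  ∃ (m : ℕ) (P : MvPolynomial (Fin n ⊕ Fin m) ℤ), IsRep P S ∧ IsSingleFold P

/-- `S` has a finite-fold Diophantine representation. -/
def HasFiniteFoldRep {n : ℕ} (S : Set (Fin n → ℕ)) : Prop :=
  ∃ (m : ℕ) (P : MvPolynomial (Fin n ⊕ Fin m) ℤ), IsRep P S ∧ IsFiniteFold P

end Vale.Agent.P345
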