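import Vale.Agent.Lib.P345.Defs

/-!
# P345: projections along a coordinate with unique / finitely many values
-/

namespace Vale.Agent.P345

/-- Move the last parameter to the first auxiliary unknown. -/
def moveLast (n m : ℕ) : Fin (n + 1) ⊕ Fin m → Fin n ⊕ Fin (m + 1) :=
  Sum.elim (fun i => Fin.lastCases (motive := fun _ => Fin n ⊕ Fin (m + 1))
    (Sum.inr 0) (fun j => Sum.inl j) i) (fun j => Sum.inr j.succ)

theorem evalAt_rename_moveLast {n m : ℕ} (P : MvPolynomial (Fin (n + 1) ⊕ Fin m) ℤ)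
    (a : Fin n → ℕ) (w : Fin (m + 1) → ℕ) :
    evalAt (MvPolynomial.rename (moveLast n m) P) a w
      = evalAt P (Fin.snoc (α := fun _ => ℕ) a (w 0)) (Fin.tail w) := by
  unfold evalAt
  rw [MvPolynomial.eval_rename]
  apply congrArg (fun f => MvPolynomial.eval f P)
  funext i
  rcases i with i | j
  · induction i using Fin.lastCases with
    | last => simp [moveLast]
    | cast j => simp [moveLast]
  · simp [moveLast, Fin.tail]

theorem isRep_proj {n m : ℕ} {P : MvPolynomial (Fin (n + 1) ⊕ Fin m) ℤ}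
    {T : Set (Fin (n + 1) → ℕ)} (hP : IsRep P T) :
    IsRep (MvPolynomial.rename (moveLast n m) P)
      {a : Fin n → ℕ | ∃ t, Fin.snoc (α := fun _ => ℕ) a t ∈ T} := by
  intro a
  constructor
  · rintro ⟨t, ht⟩
    obtain ⟨w, hw⟩ := (hP _).1 ht
    refine ⟨Fin.cons (α := fun _ => ℕ) t w, ?_⟩
    rw [evalAt_rename_moveLast]
    simpa using hw
  · rintro ⟨w, hw⟩
    rw [evalAt_rename_moveLast] at hw
    exact ⟨w 0, (hP _).2 ⟨_, hw⟩⟩

theorem isSingleFold_proj {n m : ℕ} {P : MvPolynomial (Fin (n + 1) ⊕ Fin m) ℤ}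
    {T : Set (Fin (n + 1) → ℕ)} (hP : IsRep P T) (hs : IsSingleFold P)
    (hT : ∀ a : Fin n → ℕ, {t | Fin.snoc (α := fun _ => ℕ) a t ∈ T}.Subsingleton) :
    IsSingleFold (MvPolynomial.rename (moveLast n m) P) := by
  intro a w₁ h₁ w₂ h₂
  simp only [Set.mem_ofPred_eq] at h₁ h₂
  rw [evalAt_rename_moveLast] at h₁ h₂
  have e0 : w₁ 0 = w₂ 0 := hT a ((hP _).2 ⟨_, h₁⟩) ((hP _).2 ⟨_, h₂⟩)
  rw [← e0] at h₂
  have e1 : Fin.tail w₁ = Fin.tail w₂ := hs _ h₁ h₂
  rw [← Fin.cons_self_tail w₁, ← Fin.cons_self_tail w₂, e0, e1]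

theorem isFiniteFold_proj {n m : ℕ} {P : MvPolynomial (Fin (n + 1) ⊕ Fin m) ℤ}
    {T : Set (Fin (n + 1) → ℕ)} (hP : IsRep P T) (hs : IsFiniteFold P)
    (hT : ∀ a : Fin n → ℕ, {t | Fin.snoc (α := fun _ => ℕ) a t ∈ T}.Finite) :
    IsFiniteFold (MvPolynomial.rename (moveLast n m) P) := by
  intro a
  have hfin : (⋃ t ∈ {t | Fin.snoc (α := fun _ => ℕ) a t ∈ T},
      (fun w : Fin m → ℕ => (Fin.cons (α := fun _ => ℕ) t w : Fin (m + 1) → ℕ)) ''
        {w | evalAt P (Fin.snoc (α := fun _ => ℕ) a t) w = 0}).Finite :=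
    (hT a).biUnion (fun t _ => (hs _).image _)
  refine hfin.subset ?_
  intro w hw
  simp only [Set.mem_ofPred_eq] at hw
  rw [evalAt_rename_moveLast] at hw
  simp only [Set.mem_iUnion]
  exact ⟨w 0, (hP _).2 ⟨_, hw⟩, Fin.tail w, hw, Fin.cons_self_tail w⟩

end Vale.Agent.P345
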