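import Vale.Agent.Lib.P345.Proj

/-!
# P345: every recursively enumerable set is the injective projection of a primitive recursive set
-/

namespace Vale.Agent.P345

open Nat.Partrec (Code)
open Nat.Partrec.Code

/-- The code of a tuple (with respect to the primitive recursive coding of tuples). -/
def enc {n : ℕ} (a : Fin n → ℕ) : ℕ :=
  @Encodable.encode (Fin n → ℕ) Primcodable.finArrow.toEncodable a

/-- The set of `(a, t)` such that the code `c` on input (the code of) `a` halts within stage bound
`t + 1` but not within stage bound `t`. -/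
def stageSet (n : ℕ) (c : Code) : Set (Fin (n + 1) → ℕ) :=
  {b | (evaln (b (Fin.last n) + 1) c (enc (Fin.init b : Fin n → ℕ))).isSome = true ∧
    ¬ (evaln (b (Fin.last n)) c (enc (Fin.init b : Fin n → ℕ))).isSome = true}

theorem primrec_app {n : ℕ} (i : Fin n) : Primrec (fun b : Fin n → ℕ => b i) :=
  Primrec.fin_app.comp Primrec.id (Primrec.const i)

theorem primrec_init (n : ℕ) :
    Primrec (fun b : Fin (n + 1) → ℕ => (Fin.init b : Fin n → ℕ)) := by
  rw [Primrec.fin_curry]
  exact (Primrec.fin_curry₁.2 (fun i : Fin n => primrec_app i.castSucc)).swap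

theorem primrecPred_stageSet (n : ℕ) (c : Code) : PrimrecPred (fun b => b ∈ stageSet n c) := by
  have hin : Primrec (fun b : Fin (n + 1) → ℕ => enc (Fin.init b : Fin n → ℕ)) :=
    Primrec.encode.comp (primrec_init n)
  have h0 : Primrec (fun b : Fin (n + 1) → ℕ =>
      (evaln (b (Fin.last n)) c (enc (Fin.init b : Fin n → ℕ))).isSome) :=
    Primrec.option_isSome.comp
      (primrec_evaln.comp (((primrec_app (Fin.last n)).pair (Primrec.const c)).pair hin))
  have h1 : Primrec (fun b : Fin (n + 1) → ℕ =>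
      (evaln (b (Fin.last n) + 1) c (enc (Fin.init b : Fin n → ℕ))).isSome) :=
    Primrec.option_isSome.comp
      (primrec_evaln.comp (((Primrec.succ.comp (primrec_app (Fin.last n))).pair
        (Primrec.const c)).pair hin))
  exact (Primrec.eq.comp h1 (Primrec.const true)).and (Primrec.eq.comp h0 (Primrec.const true)).not

/-- monotonicity of halting in the stage bound -/
theorem isSome_mono {c : Code} {x k₁ k₂ : ℕ} (h : k₁ ≤ k₂) (h1 : (evaln k₁ c x).isSome = true) :
    (evaln k₂ c x).isSome = true := by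
  obtain ⟨y, hy⟩ := Option.isSome_iff_exists.1 h1
  exact Option.isSome_iff_exists.2 ⟨y, evaln_mono h hy⟩

theorem stageSet_fibre_subsingleton (n : ℕ) (c : Code) (a : Fin n → ℕ) :
    {t | Fin.snoc (α := fun _ => ℕ) a t ∈ stageSet n c}.Subsingleton := by
  intro s hs t ht
  simp only [stageSet, Set.mem_ofPred_eq, Fin.snoc_last, Fin.init_snoc] at hs ht
  by_contra hne
  rcases lt_or_gt_of_ne hne with h | h
  · exact ht.2 (isSome_mono h hs.1)
  · exact hs.2 (isSome_mono h ht.1)

theorem exists_stage_iff (n : ℕ) (c : Code) (a : Fin n → ℕ) :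
    (∃ t, Fin.snoc (α := fun _ => ℕ) a t ∈ stageSet n c) ↔ (eval c (enc a)).Dom := by
  constructor
  · rintro ⟨t, ht⟩
    simp only [stageSet, Set.mem_ofPred_eq, Fin.snoc_last, Fin.init_snoc] at ht
    obtain ⟨y, hy⟩ := Option.isSome_iff_exists.1 ht.1
    exact Part.dom_iff_mem.2 ⟨y, evaln_sound hy⟩
  · intro h
    obtain ⟨y, hy⟩ := Part.dom_iff_mem.1 h
    obtain ⟨k, hk⟩ := evaln_complete.1 hy
    have hex : ∃ k, (evaln k c (enc a)).isSome = true :=
      ⟨k, Option.isSome_iff_exists.2 ⟨y, hk⟩⟩
    classical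
    have hmin := Nat.find_spec hex
    have hlt := fun j => Nat.find_min hex (m := j)
    rcases hk0 : Nat.find hex with _ | t
    · rw [hk0] at hmin
      simp [evaln] at hmin
    · refine ⟨t, ?_⟩
      simp only [stageSet, Set.mem_ofPred_eq, Fin.snoc_last, Fin.init_snoc]
      rw [hk0] at hmin
      exact ⟨hmin, hlt t (by omega)⟩

/-- Every recursively enumerable set is the projection, along a coordinate taking at most one
value, of a primitive recursive set. -/
theorem exists_primrec_cover {n : ℕ} {S : Set (Fin n → ℕ)} (hS : REPred (fun a => a ∈ S)) :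
    ∃ T : Set (Fin (n + 1) → ℕ), PrimrecPred (fun b => b ∈ T) ∧
      (∀ a : Fin n → ℕ, {t | Fin.snoc (α := fun _ => ℕ) a t ∈ T}.Subsingleton) ∧
      S = {a : Fin n → ℕ | ∃ t, Fin.snoc (α := fun _ => ℕ) a t ∈ T} := by
  obtain ⟨c, hc⟩ := exists_code.1 hS
  refine ⟨stageSet n c, primrecPred_stageSet n c, stageSet_fibre_subsingleton n c, ?_⟩
  ext a
  simp only [Set.mem_ofPred_eq]
  rw [exists_stage_iff, hc]
  simp [Part.assert, enc]

end Vale.Agent.P345
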